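import Vale.Agent.P240.R2.H997.NoOut

/-!
If the Coxeter diagram of a split BN-pair is a path, then an automorphism of odd order that
stabilizes `B` stabilizes all minimal parabolic subgroups over `B`.
-/

set_option autoImplicit false

namespace Vale.Agent.P240.R2.H997

open Subgroup Vale.Agent.P240.K Vale.Agent.P240.H195

universe u

/-- an automorphism of odd order of a path is trivial -/
theorem path_perm {l : ℕ} (π : Equiv.Perm (Fin l))
    (hadj : ∀ i j : Fin l, i.val + 1 = j.val → (π i).val + 1 = (π j).val ∨ (π j).val + 1 = (π i).val)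
    (hadj' : ∀ i j : Fin l, i.val + 1 = j.val →
      (π⁻¹ i).val + 1 = (π⁻¹ j).val ∨ (π⁻¹ j).val + 1 = (π⁻¹ i).val)
    {n : ℕ} (hn : Odd n) (hπ : π ^ n = 1) : π = 1 := by
  rcases Nat.eq_zero_or_pos l with rfl | hl
  · exact Subsingleton.elim _ _
  -- the maps do not increase distances
  have key : ∀ σ : Equiv.Perm (Fin l), (∀ i j : Fin l, i.val + 1 = j.val →
      (σ i).val + 1 = (σ j).val ∨ (σ j).val + 1 = (σ i).val) →
      ∀ (d : ℕ) (i j : Fin l), i.val + d = j.val →
        (σ i).val ≤ (σ j).val + d ∧ (σ j).val ≤ (σ i).val + d := by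
    intro σ hσ d
    induction d with
    | zero =>
      intro i j hij
      have : i = j := Fin.ext (by simpa using hij)
      subst this
      simp
    | succ d ih =>
      intro i j hij
      have hj := j.2
      have h1 := ih i ⟨i.val + d, by omega⟩ rfl
      have h2 := hσ ⟨i.val + d, by omega⟩ j (by simp only []; omega)
      omega
  have k1 := key π hadj
  have k2 := key π⁻¹ hadj'
  have hinv : ∀ x, π⁻¹ (π x) = x := π.symm_apply_apply
  -- the first vertex is mapped to an end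
  have h0' : ∀ i : Fin l, (π i).val = (π ⟨0, hl⟩).val + i.val ∨
      (π i).val + i.val = (π ⟨0, hl⟩).val := by
    intro i
    have h1 := k1 i.val ⟨0, hl⟩ i (by simp)
    rcases le_total (π ⟨0, hl⟩).val (π i).val with h2 | h2
    · have h3 := k2 ((π i).val - (π ⟨0, hl⟩).val) (π ⟨0, hl⟩) (π i) (by omega)
      simp only [hinv] at h3
      omega
    · have h3 := k2 ((π ⟨0, hl⟩).val - (π i).val) (π i) (π ⟨0, hl⟩) (by omega)
      simp only [hinv] at h3
      omega
  have hend : (π ⟨0, hl⟩).val = 0 ∨ (π ⟨0, hl⟩).val + 1 = l := by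
    have h1 := h0' ⟨l - 1, by omega⟩
    have h2 := (π ⟨l - 1, by omega⟩).2
    have h3 := (π ⟨0, hl⟩).2
    simp only [] at h1
    omega
  have hsq : π * π = 1 := by
    ext i
    rw [Equiv.Perm.mul_apply, Equiv.Perm.one_apply]
    rcases hend with h1 | h1
    · have h2 := h0' i
      have h3 := h0' (π i)
      omega
    · have h2 := h0' i
      have h3 := h0' (π i)
      have h4 := (π i).2
      have h5 := (π (π i)).2
      have h6 := i.2
      omega
  obtain ⟨k, rfl⟩ := hn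
  rw [pow_add, pow_mul, pow_two, hsq, one_pow, one_mul, pow_one] at hπ
  exact hπ

section
variable {L : Type u} [Group L] {B N U : Subgroup L} {S : Set L} {r : ℕ}

/-- `P Q ⊆ Q P` -/
def Sw (P Q : Subgroup L) : Prop := ∀ x ∈ P, ∀ y ∈ Q, ∃ y' ∈ Q, ∃ x' ∈ P, x * y = y' * x'

lemma Sw.am {P Q : Subgroup L} (h : Sw P Q) (e : MulAut L) : Sw (am e P) (am e Q) := by
  rintro _ ⟨x, hx, rfl⟩ _ ⟨y, hy, rfl⟩
  obtain ⟨y', hy', x', hx', he⟩ := h x hx y hy
  refine ⟨e y', apply_mem_am hy', e x', apply_mem_am hx', ?_⟩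
  change e x * e y = e y' * e x'
  rw [← map_mul, he, map_mul]

lemma sw_of_comm (h : SB r B N U S) {a b : L} (ha : a ∈ S) (hb : b ∈ S)
    (hab : (b * a)⁻¹ * (a * b) ∈ B) : Sw (Par B a) (Par B b) := by
  intro x hx y hy
  rcases (h.mem_Par ha).1 hx with hxB | ⟨c₁, hc₁, c₂, hc₂, hxe⟩
  · exact ⟨x * y, mul_mem (le_Par hxB) hy, 1, one_mem _, by group⟩
  rcases (h.mem_Par hb).1 hy with hyB | ⟨c₃, hc₃, c₄, hc₄, hye⟩
  · exact ⟨1, one_mem _, x * y, mul_mem hx (le_Par hyB), by group⟩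
  rcases h.mul a ha (c₂ * c₃) (mul_mem hc₂ hc₃) b (h.sub b hb) with ⟨d, hd, d', hd', he⟩ |
    ⟨d, hd, d', hd', he⟩
  · refine ⟨x * y, ?_, 1, one_mem _, by group⟩
    have e1 : x * y = (c₁ * d) * b * (d' * c₄) := by
      calc x * y = c₁ * (a * (c₂ * c₃) * b) * c₄ := by rw [hxe, hye]; group
        _ = _ := by rw [he]; group
    rw [e1]
    exact mul_mem (mul_mem (le_Par (mul_mem hc₁ hd)) self_mem_Par) (le_Par (mul_mem hd' hc₄))
  · refine ⟨c₁ * d * b, mul_mem (le_Par (mul_mem hc₁ hd)) self_mem_Par,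
      a * (((b * a)⁻¹ * (a * b)) * (d' * c₄)), mul_mem self_mem_Par
        (le_Par (mul_mem hab (mul_mem hd' hc₄))), ?_⟩
    calc x * y = c₁ * (a * (c₂ * c₃) * b) * c₄ := by rw [hxe, hye]; group
      _ = _ := by rw [he]; group

lemma comm_of_sw (h : SB r B N U S) [Finite L] {a b : L} (ha : a ∈ S) (hb : b ∈ S)
    (hne : a⁻¹ * b ∉ B) (hsw : Sw (Par B a) (Par B b)) : (b * a)⁻¹ * (a * b) ∈ B := by
  obtain ⟨y, hy, x, hx, he⟩ := hsw a self_mem_Par b self_mem_Par
  have hne' : b⁻¹ * a ∉ B := by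
    intro hc
    apply hne
    have := inv_mem hc
    rwa [mul_inv_rev, inv_inv] at this
  rcases (h.mem_Par hb).1 hy with hyB | ⟨c₁, hc₁, c₂, hc₂, hye⟩
  · exfalso
    have h1 : b = a⁻¹ * (y * x) := by rw [← he]; group
    have h2 : b ∈ Par B a := by
      rw [h1]
      exact mul_mem (inv_mem self_mem_Par) (mul_mem (le_Par hyB) hx)
    exact hne ((h.gen_mem_par hb ha).1 h2)
  rcases (h.mem_Par ha).1 hx with hxB | ⟨c₃, hc₃, c₄, hc₄, hxe⟩
  · exfalso
    have h1 : a = (y * x) * b⁻¹ := by rw [← he]; group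
    have h2 : a ∈ Par B b := by
      rw [h1]
      exact mul_mem (mul_mem hy (le_Par hxB)) (inv_mem self_mem_Par)
    exact hne' ((h.gen_mem_par ha hb).1 h2)
  have haN := h.sub a ha
  have hbN := h.sub b hb
  have e1 : a * b = c₁ * (b * (c₂ * c₃) * a) * c₄ := by rw [he, hye, hxe]; group
  rcases h.mul b hb (c₂ * c₃) (mul_mem hc₂ hc₃) a haN with h1 | h1
  · exfalso
    have h2 : DC B a (a * b) := by
      rw [e1]
      exact (h1.left hc₁).right hc₄
    have h3 := h.inj haN (mul_mem haN hbN) h2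
    rw [inv_mul_cancel_left] at h3
    exact h.not_mem hb h3
  · have h2 : DC B (b * a) (a * b) := by
      rw [e1]
      exact (h1.left hc₁).right hc₄
    exact h.inj (mul_mem hbN haN) (mul_mem haN hbN) h2

lemma par_eq_of {a b : L} (h : SB r B N U S) (ha : a ∈ S) (hb : b ∈ S) (hab : a⁻¹ * b ∈ B) :
    Par B b = Par B a := by
  have hba : b⁻¹ * a ∈ B := by
    have := inv_mem hab
    rwa [mul_inv_rev, inv_inv] at this
  exact le_antisymm (SB.par_le le_Par ((h.gen_mem_par hb ha).2 hab))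
    (SB.par_le le_Par ((h.gen_mem_par ha hb).2 hba))

/-- an automorphism that stabilizes `B` permutes the minimal parabolic subgroups and preserves the
relation of being joined in the Coxeter diagram -/
theorem par_perm (h : SB r B N U S) [Finite L] {ι : Type*} (s : ι → L)
    (hs : ∀ i, s i ∈ S) (hall : ∀ t ∈ S, ∃ i, (s i)⁻¹ * t ∈ B)
    (hinj : ∀ i j, (s i)⁻¹ * s j ∈ B → i = j) {e : MulAut L} (he : am e B = B) :
    ∃ π : Equiv.Perm ι, (∀ i, am e (Par B (s i)) = Par B (s (π i))) ∧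
      (∀ i j, (s j * s i)⁻¹ * (s i * s j) ∈ B ↔
        (s (π j) * s (π i))⁻¹ * (s (π i) * s (π j)) ∈ B) ∧
      (∀ (k : ℕ) i, am (e ^ k) (Par B (s i)) = Par B (s ((π ^ k) i))) ∧
      ∀ n : ℕ, e ^ n = 1 → π ^ n = 1 := by
  have hPinj : ∀ i j, Par B (s i) = Par B (s j) → i = j := by
    intro i j hij
    have h1 : s j ∈ Par B (s i) := by rw [hij]; exact self_mem_Par
    exact hinj i j ((h.gen_mem_par (hs j) (hs i)).1 h1)
  have hex : ∀ e : MulAut L, am e B = B → ∀ i, ∃ j, am e (Par B (s i)) = Par B (s j) := by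
    intro e he i
    obtain ⟨t, ht, h1⟩ := h.am_par he (hs i)
    obtain ⟨j, hj⟩ := hall t ht
    exact ⟨j, h1.trans (par_eq_of h (hs j) ht hj)⟩
  choose f hf using hex e he
  choose g hg using hex e⁻¹ (am_inv_eq he)
  have hfg : ∀ i, f (g i) = i := by
    intro i
    apply hPinj
    rw [← hf, ← hg, ← am_mul, mul_inv_cancel, am_one]
  have hgf : ∀ i, g (f i) = i := by
    intro i
    apply hPinj
    rw [← hg, ← hf, ← am_mul, inv_mul_cancel, am_one]
  let π : Equiv.Perm ι := ⟨f, g, hgf, hfg⟩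
  have hpow : ∀ (k : ℕ) i, am (e ^ k) (Par B (s i)) = Par B (s ((π ^ k) i)) := by
    intro k
    induction k with
    | zero => intro i; rw [pow_zero, am_one]; rfl
    | succ k ih =>
      intro i
      rw [pow_succ, am_mul, hf, ih, pow_succ, Equiv.Perm.mul_apply]
      rfl
  -- commuting generators
  have hpres : ∀ e : MulAut L, am e B = B → ∀ f : ι → ι,
      (∀ i, am e (Par B (s i)) = Par B (s (f i))) → Function.Injective f →
      ∀ i j, (s j * s i)⁻¹ * (s i * s j) ∈ B → (s (f j) * s (f i))⁻¹ * (s (f i) * s (f j)) ∈ B := by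
    intro e he f hf hfi i j hij
    by_cases hne : i = j
    · subst hne
      rw [inv_mul_cancel]
      exact one_mem _
    · have h1 := (sw_of_comm h (hs i) (hs j) hij).am e
      rw [hf, hf] at h1
      exact comm_of_sw h (hs _) (hs _) (fun h2 => hne (hfi (hinj _ _ h2))) h1
  refine ⟨π, hf, fun i j => ⟨hpres e he f hf π.injective i j, fun h1 => ?_⟩, hpow, ?_⟩
  · have h2 := hpres e⁻¹ (am_inv_eq he) g hg π.symm.injective (f i) (f j) h1
    rwa [hgf, hgf] at h2
  · intro n hn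
    ext i : 1
    have h1 := hpow n i
    rw [hn, am_one] at h1
    rw [Equiv.Perm.one_apply]
    exact (hPinj _ _ h1).symm

/-- if the permutation of the diagram is trivial, all minimal parabolic subgroups are stabilized -/
theorem par_fix_of_perm (h : SB r B N U S) {ι : Type*} {s : ι → L}
    (hs : ∀ i, s i ∈ S) (hall : ∀ t ∈ S, ∃ i, (s i)⁻¹ * t ∈ B) {e : MulAut L}
    {π : Equiv.Perm ι} (hπ : ∀ i, am e (Par B (s i)) = Par B (s (π i))) (h1 : π = 1) :
    ∀ t ∈ S, am e (Par B t) = Par B t := by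
  intro t ht
  obtain ⟨i, hi⟩ := hall t ht
  rw [par_eq_of h (hs i) ht hi, hπ, h1, Equiv.Perm.one_apply]

/-- **path-shaped diagrams** -/
theorem par_fix_of_path (h : SB r B N U S) [Finite L] {l : ℕ} (s : Fin l → L)
    (hs : ∀ i, s i ∈ S) (hall : ∀ t ∈ S, ∃ i, (s i)⁻¹ * t ∈ B)
    (hinj : ∀ i j, (s i)⁻¹ * s j ∈ B → i = j)
    (hnc : ∀ i j : Fin l, i.val + 1 = j.val → (s j * s i)⁻¹ * (s i * s j) ∉ B)
    (hc : ∀ i j : Fin l, i.val + 1 < j.val → (s j * s i)⁻¹ * (s i * s j) ∈ B)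
    {e : MulAut L} (he : am e B = B) {n : ℕ} (hn : Odd n) (hen : e ^ n = 1) :
    ∀ t ∈ S, am e (Par B t) = Par B t := by
  obtain ⟨π, hπ1, hπ2, -, hπ4⟩ := par_perm h s hs hall hinj he
  refine par_fix_of_perm h hs hall hπ1 ?_
  have hcomm : ∀ i j : Fin l, (s j * s i)⁻¹ * (s i * s j) ∈ B →
      (s i * s j)⁻¹ * (s j * s i) ∈ B := by
    intro i j h1
    have := inv_mem h1
    rwa [mul_inv_rev, inv_inv] at this
  have hrel : ∀ i j : Fin l, i ≠ j → (¬ (i.val + 1 = j.val ∨ j.val + 1 = i.val)) →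
      (s j * s i)⁻¹ * (s i * s j) ∈ B := by
    intro i j hij hcon
    have hij' : i.val ≠ j.val := fun h => hij (Fin.ext h)
    push Not at hcon
    rcases lt_or_gt_of_ne hij' with h2 | h2
    · exact hc i j (by omega)
    · exact hcomm j i (hc j i (by omega))
  have hrel' : ∀ i j : Fin l, (i.val + 1 = j.val ∨ j.val + 1 = i.val) →
      (s j * s i)⁻¹ * (s i * s j) ∉ B := by
    rintro i j (h1 | h1)
    · exact hnc i j h1
    · exact fun h2 => hnc j i h1 (hcomm i j h2)
  refine path_perm π ?_ ?_ hn (hπ4 n hen)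
  · intro i j hij
    by_contra hcon
    have hne : π i ≠ π j := by
      intro h1
      have := π.injective h1
      subst this
      omega
    exact hrel' i j (Or.inl hij) ((hπ2 i j).2 (hrel _ _ hne hcon))
  · intro i j hij
    by_contra hcon
    have hne : π⁻¹ i ≠ π⁻¹ j := by
      intro h1
      have := π⁻¹.injective h1
      subst this
      omega
    have h1 := (hπ2 (π⁻¹ i) (π⁻¹ j)).1 (hrel _ _ hne hcon)
    have h2 : ∀ x, π (π⁻¹ x) = x := π.apply_symm_apply
    rw [h2, h2] at h1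
    exact hrel' i j (Or.inl hij) h1

end

end Vale.Agent.P240.R2.H997
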