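import Vale.Agent.P240.R2.H997.ParFix
import Vale.Agent.P240.R2.H195.OmLie

/-!
The groups `Ω_n(F)`, `n` odd: no outer automorphisms of order `p`, for odd `p` different from the
characteristic `r` of `F` and prime to `r ^ j - 1` for all `j` with `r ^ j ≤ |F|`.
-/

set_option autoImplicit false
set_option linter.all false

namespace Vale.Agent.P240.R2.H997

open Subgroup Matrix Vale.Agent.P240.H195 Vale.Agent.P240.R2.H487.CG Vale.Agent.P240.K
  Vale.Agent.P240.R2.H775.RG Vale.Agent.P240.R2.H195.Om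

universe u

section
variable {m : ℕ}

lemma ty_fix {k : Fin m} (hk : 2 * k.val + 1 ≤ m) {x : Fin (m + 1)} (h1 : x.val ≠ k.val)
    (h2 : x.val ≠ k.val + 1) (h3 : x.val + k.val + 1 ≠ m) (h4 : x.val + k.val ≠ m) :
    ty k x = x := by
  unfold ty
  split_ifs with h
  · rw [Equiv.Perm.mul_apply]
    have e1 : sw (Fin.rev k) x = x := by
      refine Equiv.swap_apply_of_ne_of_ne ?_ ?_ <;> rw [Ne, Fin.ext_iff] <;>
        simp only [Fin.val_castSucc, Fin.val_succ, Fin.val_rev] <;> omega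
    rw [e1]
    refine Equiv.swap_apply_of_ne_of_ne ?_ ?_ <;> rw [Ne, Fin.ext_iff] <;>
      simp only [Fin.val_castSucc, Fin.val_succ] <;> omega
  · refine Equiv.swap_apply_of_ne_of_ne ?_ ?_ <;> rw [Ne, Fin.ext_iff] <;>
      simp only [Fin.val_castSucc, Fin.val_rev] <;> omega

lemma ty_move {k : Fin m} (hk : 2 * k.val + 1 ≤ m) : ty k k.castSucc ≠ k.castSucc := by
  unfold ty
  split_ifs with h
  · rw [Equiv.Perm.mul_apply]
    have e1 : sw (Fin.rev k) k.castSucc = k.castSucc := by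
      refine Equiv.swap_apply_of_ne_of_ne ?_ ?_ <;> rw [Ne, Fin.ext_iff] <;>
        simp only [Fin.val_castSucc, Fin.val_succ, Fin.val_rev] <;> omega
    rw [e1]
    change Equiv.swap k.castSucc k.succ k.castSucc ≠ k.castSucc
    rw [Equiv.swap_apply_left, Ne, Fin.ext_iff, Fin.val_succ, Fin.val_castSucc]
    omega
  · rw [Equiv.swap_apply_left, Ne, Fin.ext_iff]
    simp only [Fin.val_castSucc, Fin.val_rev]
    omega

lemma ty_injective {i j : Fin m} (hi : 2 * i.val + 1 ≤ m) (hj : 2 * j.val + 1 ≤ m)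
    (h : ty i = ty j) : i = j := by
  by_contra hne
  have hne' : i.val ≠ j.val := fun h => hne (Fin.ext h)
  rcases lt_or_gt_of_ne hne' with h1 | h1
  · apply ty_move hi
    rw [h]
    refine ty_fix hj ?_ ?_ ?_ ?_ <;> simp only [Fin.val_castSucc] <;> omega
  · apply ty_move hj
    rw [← h]
    refine ty_fix hi ?_ ?_ ?_ ?_ <;> simp only [Fin.val_castSucc] <;> omega

lemma ty_comm {i j : Fin m} (hi : 2 * i.val + 1 ≤ m) (hj : 2 * j.val + 1 ≤ m)
    (h : i.val + 1 < j.val) : ty i * ty j = ty j * ty i := by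
  have h1 : Equiv.Perm.Disjoint (ty i) (ty j) := by
    intro x
    by_cases hx : x.val = i.val ∨ x.val = i.val + 1 ∨ x.val + i.val + 1 = m ∨ x.val + i.val = m
    · right
      refine ty_fix hj ?_ ?_ ?_ ?_ <;> omega
    · left
      refine ty_fix hi ?_ ?_ ?_ ?_ <;> omega
  exact h1.commute

end

section
variable {F : Type u} [Field F] [Finite F] {m : ℕ}

/-- **no outer automorphisms of order `p`** -/
theorem omega_inner {r f p : ℕ} [hr : Fact r.Prime] [CharP F r] (hm : 0 < m) (hev : m % 2 = 0)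
    (h2 : (2 : F) ≠ 0) (hs : IsSimpleGroup ↥(commutator ↥(GJ (m + 1) (rf F)))) (hp : p.Prime)
    (hp2 : p ≠ 2) (hpr : p ≠ r) (hF : Nat.card F = r ^ f)
    (hpF : ∀ j, 0 < j → j ≤ f → ¬ p ∣ r ^ j - 1)
    {g : MulAut ↥(commutator ↥(GJ (m + 1) (rf F)))} (hg : g ^ p = 1) :
    g ∈ (MulAut.conj (G := ↥(commutator ↥(GJ (m + 1) (rf F))))).range := by
  have h := (omega_rigid (p := r) hm hev h2 hs).toSB
  have hG := cg_SB (F := F) (σ := rf F) (p := r) hm hrf (Or.inr (Or.inr h2))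
  have hU := UG_le_comm (F := F) (p := r) hm hev h2
  have hHn : (commutator ↥(GJ (m + 1) (rf F))).Normal := inferInstance
  generalize commutator ↥(GJ (m + 1) (rf F)) = H at h hU hHn hs g hg
  -- representatives of the simple reflections
  have hrep : ∀ {w : Equiv.Perm (Fin (m + 1))}, Cr w → ∃ n : ↥(GJ (m + 1) (rf F)),
      ∃ t : ↥(GJ (m + 1) (rf F)), Mon n.1 w ∧ t ∈ BG (rf F) ∧ t ∈ NG (rf F) ∧ n * t ∈ H := by
    intro w hw
    obtain ⟨n, hn⟩ := exists_NG (F := F) (σ := rf F) hw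
    obtain ⟨t, ht1, ht2, ht3⟩ := sub_rep hG hU (n := n) ⟨_, hn⟩
    exact ⟨n, t, hn, ht1, ht2, ht3⟩
  have hmonT : ∀ {n t : ↥(GJ (m + 1) (rf F))} {w : Equiv.Perm (Fin (m + 1))}, Mon n.1 w →
      t ∈ BG (rf F) → t ∈ NG (rf F) → Mon (n * t).1 w := by
    intro n t w hn ht1 ht2
    have htM : Mon t.1 1 := mem_T.1 (mem_inf.2 ⟨ht1, ht2⟩)
    have := mon_mul hn htM
    rwa [mul_one] at this
  have hlt : ∀ k : Fin (m / 2), k.val < m := fun k => by have := k.2; omega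
  have hle : ∀ k : Fin (m / 2), 2 * k.val + 1 ≤ m := fun k => by have := k.2; omega
  have htyp : ∀ k : Fin (m / 2), Typ (ty (⟨k.val, hlt k⟩ : Fin m)) := fun k =>
    typ_iff.2 ⟨_, hle k, rfl⟩
  have hex : ∀ k : Fin (m / 2), ∃ s : ↥H, s ∈ subS (BG (rf F)) (NG (rf F)) (SG (rf F)) H ∧
      Mon s.1.1 (ty (⟨k.val, hlt k⟩ : Fin m)) := by
    intro k
    obtain ⟨n, t, hn, ht1, ht2, ht3⟩ := hrep (htyp k).cr
    refine ⟨⟨n * t, ht3⟩, ⟨mul_mem ⟨_, hn⟩ ht2, n, ⟨_, htyp k, hn⟩, ?_⟩, hmonT hn ht1 ht2⟩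
    change n⁻¹ * (n * t) ∈ BG (rf F)
    rwa [inv_mul_cancel_left]
  choose s hsS hsM using hex
  have hmonS : ∀ t ∈ subS (BG (rf F)) (NG (rf F)) (SG (rf F)) H, ∃ k : Fin (m / 2),
      Mon t.1.1 (ty (⟨k.val, hlt k⟩ : Fin m)) := by
    rintro t ⟨htN, a, ⟨τ, hτ, ha⟩, hat⟩
    have htM : Mon t.1.1 τ := by
      obtain ⟨w, hw⟩ := mem_NG.1 htN
      have h3 : Mon (a.1⁻¹ * t.1.1) (τ⁻¹ * w) := mon_mul (mon_inv ha) hw
      have h4 : τ⁻¹ * w = 1 := mon_up h3 hat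
      rwa [← inv_mul_eq_one.1 h4] at hw
    obtain ⟨k, hk, rfl⟩ := typ_iff.1 hτ
    exact ⟨⟨k.val, by omega⟩, htM⟩
  have hall : ∀ t ∈ subS (BG (rf F)) (NG (rf F)) (SG (rf F)) H, ∃ i,
      (s i)⁻¹ * t ∈ (BG (rf F)).subgroupOf H := by
    intro t ht
    obtain ⟨k, hk⟩ := hmonS t ht
    refine ⟨k, ?_⟩
    have h3 : Mon ((s k).1.1⁻¹ * t.1.1) _ := mon_mul (mon_inv (hsM k)) hk
    rw [inv_mul_cancel] at h3
    exact mem_T' h3
  have hinj : ∀ i j, (s i)⁻¹ * s j ∈ (BG (rf F)).subgroupOf H → i = j := by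
    intro i j hij
    have h3 : Mon ((s i).1.1⁻¹ * (s j).1.1) _ := mon_mul (mon_inv (hsM i)) (hsM j)
    have h4 := mon_up h3 hij
    have h5 := ty_injective (hle i) (hle j) (inv_mul_eq_one.1 h4)
    exact Fin.ext (by simpa using congrArg Fin.val h5)
  have hmc : ∀ i j : Fin (m / 2), Mon ((s j * s i)⁻¹ * (s i * s j)).1.1
      ((ty (⟨j.val, hlt j⟩ : Fin m) * ty (⟨i.val, hlt i⟩ : Fin m))⁻¹ *
        (ty (⟨i.val, hlt i⟩ : Fin m) * ty (⟨j.val, hlt j⟩ : Fin m))) := fun i j =>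
    mon_mul (mon_inv (mon_mul (hsM j) (hsM i))) (mon_mul (hsM i) (hsM j))
  have hnc : ∀ i j : Fin (m / 2), i.val + 1 = j.val →
      (s j * s i)⁻¹ * (s i * s j) ∉ (BG (rf F)).subgroupOf H := by
    intro i j hij hcon
    have h4 := mon_up (hmc i j) hcon
    have h5 := inv_mul_eq_one.1 h4
    obtain ⟨i, hi⟩ := i
    obtain ⟨j, hj⟩ := j
    obtain rfl : i + 1 = j := hij
    exact ty_ne (m := m) (k := i) (by omega) (by omega) (by omega) h5.symm
  have hc : ∀ i j : Fin (m / 2), i.val + 1 < j.val →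
      (s j * s i)⁻¹ * (s i * s j) ∈ (BG (rf F)).subgroupOf H := by
    intro i j hij
    have h4 := hmc i j
    rw [ty_comm (i := (⟨i.val, hlt i⟩ : Fin m)) (j := (⟨j.val, hlt j⟩ : Fin m)) (hle i) (hle j) hij,
      inv_mul_cancel] at h4
    exact mem_T' h4
  -- the opposite element
  obtain ⟨n₀, t₀, hn₀, ht1, ht2, ht3⟩ := hrep (w := Fin.revPerm) (cr_of fun x => by
    rw [Fin.revPerm_apply, Fin.revPerm_apply])
  obtain ⟨n, hnd⟩ : ∃ n : ↥H, n = ⟨n₀ * t₀, ht3⟩ := ⟨_, rfl⟩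
  have hnM : Mon n.1.1 Fin.revPerm := by rw [hnd]; exact hmonT hn₀ ht1 ht2
  have hnN : n ∈ (NG (rf F)).subgroupOf H := ⟨_, hnM⟩
  have hopp : ∀ x ∈ (UG (rf F)).subgroupOf H, n * x * n⁻¹ ∈ (UG (rf F)).subgroupOf H → x = 1 := by
    intro x hx hnx
    set z : ↥(GJ (m + 1) (rf F)) := n.1 * x.1 * n.1⁻¹ with hz
    have hzU : z.1 ∈ UU m F := hnx
    have h3 : LoU z.1 := by
      rw [lou_iff hnM]
      have : n.1.1⁻¹ * z.1 * n.1.1 = x.1.1 := by
        rw [hz]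
        change n.1.1⁻¹ * (n.1.1 * x.1.1 * n.1.1⁻¹) * n.1.1 = x.1.1
        group
      rw [this]
      exact hx
    have h4 : z.1 = 1 := by
      refine sl_ext fun i j => ?_
      rw [sl_one]
      rcases lt_trichotomy i j with h | h | h
      · rw [if_neg h.ne, h3.1 i j h]
      · rw [if_pos h, h, h3.2]
      · rw [if_neg h.ne', hzU.1 i j h]
    have h5 : z = 1 := Subtype.ext h4
    have h6 : x.1 = n.1⁻¹ * z * n.1 := by rw [hz]; group
    rw [h5] at h6
    exact Subtype.ext (by rw [h6]; simp)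
  have hpo : ∀ k, Odd (p ^ k) := fun k => (hp.odd_of_ne_two hp2).pow
  refine noOut_root h hs hr.out hp hpr hnN hopp ?_ ?_ hg
  · rintro e ⟨k, hk⟩ heB -
    exact par_fix_of_path h s hsS hall hinj hnc hc heB (hpo k) hk
  · intro x hx e he
    have hcard : Nat.card (cj n ((UG (rf F)).subgroupOf H) ⊓ Par ((BG (rf F)).subgroupOf H) x :
        Subgroup ↥H) = r ^ f := by
      rw [← hF]
      obtain ⟨hxN, a, ⟨τ, hτ, ha⟩, hax⟩ := hx
      have hxM : Mon x.1.1 τ := by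
        obtain ⟨w, hw⟩ := mem_NG.1 hxN
        have h3 : Mon (a.1⁻¹ * x.1.1) (τ⁻¹ * w) := mon_mul (mon_inv ha) hw
        have h4 : τ⁻¹ * w = 1 := mon_up h3 hax
        rwa [← inv_mul_eq_one.1 h4] at hw
      have hxS : x ∈ subS (BG (rf F)) (NG (rf F)) (SG (rf F)) H := ⟨hxN, a, ⟨τ, hτ, ha⟩, hax⟩
      have hY : ∀ y : ↥H, y ∈ (cj n ((UG (rf F)).subgroupOf H) ⊓
          Par ((BG (rf F)).subgroupOf H) x : Subgroup ↥H) ↔ LoU y.1.1 ∧ Pt τ y.1.1 := by
        intro y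
        rw [← mem_Y_iff h hnM hτ hxM hxS, mem_inf, mem_cj]
        exact and_comm
      -- coordinates
      have key : ∀ (u v : Fin (m + 1)),
          (∀ c : F, ∃ A : ↥(GJ (m + 1) (rf F)), LoU A.1 ∧ Pt τ A.1 ∧ A.1.1 u v = c) →
          (∀ A A' : ↥(GJ (m + 1) (rf F)), LoU A.1 → Pt τ A.1 → LoU A'.1 → Pt τ A'.1 →
            A.1.1 u v = A'.1.1 u v → A = A') →
          Nat.card (cj n ((UG (rf F)).subgroupOf H) ⊓ Par ((BG (rf F)).subgroupOf H) x :
            Subgroup ↥H) = Nat.card F := by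
        intro u v h3 h4
        refine Nat.card_congr (Equiv.ofBijective (fun y => y.1.1.1.1 u v) ⟨?_, ?_⟩)
        · rintro ⟨y, hy⟩ ⟨y', hy'⟩ hyy
          obtain ⟨h5, h6⟩ := (hY y).1 hy
          obtain ⟨h7, h8⟩ := (hY y').1 hy'
          exact Subtype.ext (Subtype.ext (h4 _ _ h5 h6 h7 h8 hyy))
        · intro c
          obtain ⟨A, hA1, hA2, hA3⟩ := h3 c
          exact ⟨⟨⟨A, lou_mem hHn hU hA1⟩, (hY _).2 ⟨hA1, hA2⟩⟩, hA3⟩
      rcases hτ with ⟨i, h3, h4⟩ | ⟨i, hi⟩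
      · have hi : 2 * i.val + 2 = m := by omega
        refine key i.succ i.castSucc ?_ fun A A' h5 h6 h7 h8 h9 => B_uniq hi h2 h5 h6 h7 h8 h9
        intro c
        have hth : th (rf F) (yB hi c c (c * c / 2)) = yB hi c c (c * c / 2) := by
          rw [th_yB hrf]
          have e : -(c * c / 2) + c * c = c * c / 2 := by
            field_simp
            ring
          exact congrArg (yB hi c c) e
        exact ⟨mkG hth, yB_lou hi _ _ _, yB_pt hi _ _ _, yB_10 hi _ _ _⟩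
      · refine key i.succ i.castSucc ?_ ?_
        · intro c
          exact ⟨mkG (th_yC hrf hi c), yC_lou c, yC_pt hi c, yC_apply hi c⟩
        · intro A A' h5 h6 h7 h8 h9
          apply Subtype.ext
          rw [C_sym hrf hi (fixed A) h5 h6, C_sym hrf hi (fixed A') h7 h8, h9]
    exact triv_of_pow hp hr.out hpr hcard hpF he

/-- **`FewAut p` for `Ω_n(F)`**, `n` odd -/
theorem fewAut_omega {r f p : ℕ} [hr : Fact r.Prime] [CharP F r] (hm : 0 < m) (hev : m % 2 = 0)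
    (h2 : (2 : F) ≠ 0) (hs : IsSimpleGroup ↥(commutator ↥(GJ (m + 1) (rf F)))) (hp : p.Prime)
    (hp2 : p ≠ 2) (hpr : p ≠ r) (hF : Nat.card F = r ^ f)
    (hpF : ∀ j, 0 < j → j ≤ f → ¬ p ∣ r ^ j - 1) :
    FewAut p ↥(commutator ↥(GJ (m + 1) (rf F))) :=
  fewAut_of_inner fun _ hg => omega_inner (r := r) hm hev h2 hs hp hp2 hpr hF hpF hg

/-- the fields with `3` and `5` elements -/
theorem fewAut_omega_small {p : ℕ} (hm : 0 < m) (hev : m % 2 = 0)
    (hs : IsSimpleGroup ↥(commutator ↥(GJ (m + 1) (rf F)))) (hp : p.Prime) (hp2 : p ≠ 2)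
    (hpF : (p : F) ≠ 0) (hF : Nat.card F = 3 ∨ Nat.card F = 5) :
    FewAut p ↥(commutator ↥(GJ (m + 1) (rf F))) := by
  obtain ⟨r, hrF, hr35⟩ : ∃ r : ℕ, Nat.card F = r ∧ (r = 3 ∨ r = 5) := ⟨_, rfl, hF⟩
  have hrp : r.Prime := by rcases hr35 with rfl | rfl <;> norm_num
  have : Fact r.Prime := ⟨hrp⟩
  have : Fintype F := Fintype.ofFinite F
  have hrc : (r : F) = 0 := by
    have h1 := Nat.cast_card_eq_zero F
    rwa [← Nat.card_eq_fintype_card, hrF] at h1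
  have hch : CharP F r := by
    obtain ⟨r', hr'⟩ := CharP.exists F
    have h3 : r' ∣ r := (CharP.cast_eq_zero_iff F r' r).1 hrc
    rcases (Nat.dvd_prime hrp).1 h3 with rfl | rfl
    · exact absurd rfl (CharP.char_ne_one F 1)
    · exact hr'
  have h2 : (2 : F) ≠ 0 := by
    intro h
    have h3 : ((2 : ℕ) : F) = 0 := by exact_mod_cast h
    rw [CharP.cast_eq_zero_iff F r] at h3
    have := Nat.le_of_dvd (by norm_num) h3
    omega
  refine fewAut_omega (r := r) (f := 1) hm hev h2 hs hp hp2 ?_ (by rw [hrF, pow_one]) ?_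
  · rintro rfl
    exact hpF hrc
  · intro j hj hj1
    obtain rfl : j = 1 := by omega
    rw [pow_one]
    intro hd
    have h5 : p ∣ 2 ∨ p ∣ 4 := by
      rcases hr35 with rfl | rfl
      · exact Or.inl hd
      · exact Or.inr hd
    have h6 : p ∣ 2 := by
      rcases h5 with h5 | h5
      · exact h5
      · have h7 : p ∣ 2 ^ 2 := h5
        exact hp.dvd_of_dvd_pow h7
    exact hp2 ((Nat.prime_dvd_prime_iff_eq hp Nat.prime_two).1 h6)

end

end Vale.Agent.P240.R2.H997
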