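import Vale.Agent.P240.R2.H195.RigA
import Vale.Agent.P240.H195.SLB
import Vale.Agent.P240.H195.CF

/-!
Simple groups with a split BN-pair of characteristic `r`: if the automorphisms of `p`-power order
(`p ≠ r`) that stabilize `B` and an opposite chamber stabilize the minimal parabolic subgroups over
`B` and centralize the opposite root subgroups, then all automorphisms of order `p` are inner.
-/

set_option autoImplicit false

namespace Vale.Agent.P240.R2.H997

open Subgroup Vale.Agent.P240.K Vale.Agent.P240.H195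

universe u

section
variable {L : Type u} [Group L] {B N U : Subgroup L} {S : Set L} {r : ℕ}

lemma am_pow_eq {e : MulAut L} {Q : Subgroup L} (h : am e Q = Q) (k : ℕ) : am (e ^ k) Q = Q := by
  induction k with
  | zero => rw [pow_zero, am_one]
  | succ k ih => rw [pow_succ, am_mul, h, ih]

lemma am_of_mem_zpowers {e x : MulAut L} {Q : Subgroup L} (h : am e Q = Q) (hx : x ∈ zpowers e) :
    am x Q = Q := by
  obtain ⟨k, rfl⟩ := hx
  obtain ⟨n, rfl | rfl⟩ := k.eq_nat_or_neg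
  · change am (e ^ (n : ℤ)) Q = Q
    rw [zpow_natCast]
    exact am_pow_eq h n
  · change am (e ^ (-(n : ℤ))) Q = Q
    rw [zpow_neg, zpow_natCast]
    exact am_inv_eq (am_pow_eq h n)

lemma normal_conj : (MulAut.conj (G := L)).range.Normal := by
  constructor
  rintro _ ⟨x, rfl⟩ g
  refine ⟨g x, ?_⟩
  ext y
  simp [MulAut.mul_apply, MulAut.conj_apply]

/-- automorphisms that stabilize `B` permute the opposite chambers -/
lemma opp_am (h : SB r B N U S) [Finite L] {e : MulAut L} (he : am e B = B) {C : Subgroup L}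
    (hC : Opp B S C) : Opp B S (am e C) := by
  obtain ⟨g, rfl, hg⟩ := hC
  refine ⟨e g, by rw [am_cj, he], fun s hs hp => ?_⟩
  obtain ⟨t, ht, hst⟩ := h.am_par (f := e⁻¹) (am_inv_eq he) hs
  refine hg t ht fun b hb hbt => ?_
  have h1 : e b ∈ B := by
    have := apply_mem_am (f := e) hb
    rwa [he] at this
  have h2 : (e g)⁻¹ * e b * e g = e (g⁻¹ * b * g) := by rw [map_mul, map_mul, map_inv]
  have h3 : e (g⁻¹ * b * g) ∈ Par B s := by
    rw [← hst, mem_am, inv_inv] at hbt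
    exact hbt
  have h4 := hp (e b) h1 (by rw [h2]; exact h3)
  rw [h2] at h4
  have h5 := apply_mem_am (f := e⁻¹) h4
  rw [am_inv_eq he] at h5
  have h6 : e⁻¹ (e (g⁻¹ * b * g)) = g⁻¹ * b * g := by
    rw [← MulAut.mul_apply, inv_mul_cancel, MulAut.one_apply]
  rwa [h6] at h5

/-- a `p`-group of automorphisms, `p ≠ r`, that stabilizes `B` stabilizes an opposite chamber -/
lemma exists_opp_fix (h : SB r B N U S) [Finite L] (hr : r.Prime) {p : ℕ} (hp : p.Prime)
    (hpr : p ≠ r) {e : MulAut L} {a : ℕ} (hea : e ^ p ^ a = 1) (he : am e B = B) :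
    ∃ C, Opp B S C ∧ am e C = C := by
  classical
  have : Fact p.Prime := ⟨hp⟩
  have : Fact r.Prime := ⟨hr⟩
  let Ω := {C : Subgroup L // Opp B S C}
  let act : MulAction (zpowers e) Ω :=
    { smul := fun x C => ⟨am x.1 C.1, opp_am h (am_of_mem_zpowers he x.2) C.2⟩
      one_smul := fun C => Subtype.ext (am_one _)
      mul_smul := fun x y C => Subtype.ext (am_mul _ _ _) }
  have hpg : IsPGroup p (zpowers e) := by
    intro x
    refine ⟨a, ?_⟩
    obtain ⟨x, k, rfl⟩ := x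
    ext1
    change (e ^ k) ^ p ^ a = 1
    rw [← zpow_natCast, ← zpow_mul, mul_comm, zpow_mul, zpow_natCast, hea, one_zpow]
  have hcard : Nat.card Ω = Nat.card U := by
    rw [← h.card_opp_empty hr]
    refine Nat.card_congr (Equiv.subtypeEquivRight fun C => ?_)
    exact ⟨fun hC => ⟨hC, fun f hf => absurd hf (Set.notMem_empty f)⟩, fun hC => hC.1⟩
  obtain ⟨k, hk⟩ := IsPGroup.iff_card.1 h.pgroup
  obtain ⟨C, hC⟩ := hpg.nonempty_fixed_point_of_prime_not_dvd_card Ω (by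
    rw [hcard, hk]
    intro hdvd
    exact hpr ((Nat.prime_dvd_prime_iff_eq hp hr).1 (hp.dvd_of_dvd_pow hdvd)))
  refine ⟨C.1, C.2, ?_⟩
  exact congrArg Subtype.val (hC ⟨e, mem_zpowers e⟩)

/-- all automorphisms of order `p` are inner -/
theorem noOut (h : SB r B N U S) [Finite L] (hsimple : IsSimpleGroup L) (hr : r.Prime) {p : ℕ}
    (hp : p.Prime) (hpr : p ≠ r) {n₀ : L} (hn₀ : n₀ ∈ N)
    (hopp : ∀ x ∈ U, n₀ * x * n₀⁻¹ ∈ U → x = 1)
    (h1 : ∀ e : MulAut L, (∃ k, e ^ p ^ k = 1) → am e B = B → am e (cj n₀ B) = cj n₀ B →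
      ∀ s ∈ S, am e (Par B s) = Par B s)
    (h2 : ∀ e : MulAut L, (∃ k, e ^ p ^ k = 1) → am e B = B → am e (cj n₀ B) = cj n₀ B →
      (∀ s ∈ S, am e (Par B s) = Par B s) →
      ∀ s ∈ S, ∀ y ∈ Par B s, n₀⁻¹ * y * n₀ ∈ U → e y = y)
    {f : MulAut L} (hf : f ^ p = 1) : f ∈ (MulAut.conj (G := L)).range := by
  by_contra hfI
  have hnI : (MulAut.conj (G := L)).range.Normal := normal_conj
  obtain ⟨g, hg⟩ := h.exists_conj hr f
  set I := (MulAut.conj (G := L)).range with hI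
  have hgI : MulAut.conj g ∈ I := ⟨g, rfl⟩
  obtain ⟨e₀, he₀⟩ : ∃ e₀, e₀ = (MulAut.conj g)⁻¹ * f := ⟨_, rfl⟩
  have he₀B : am e₀ B = B := by
    have e1 : (MulAut.conj g)⁻¹ = MulAut.conj g⁻¹ := (map_inv _ _).symm
    rw [he₀, am_mul, hg, e1, am_conj, ← cj_mul, inv_mul_cancel, cj_one]
  have he₀I : e₀ ∉ I := by
    intro hc
    apply hfI
    have : f = MulAut.conj g * e₀ := by rw [he₀, mul_inv_cancel_left]
    rw [this]
    exact mul_mem hgI hc
  have he₀p : e₀ ^ p ∈ I := by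
    rw [← QuotientGroup.eq_one_iff (N := I)]
    have h3 : ((e₀ : MulAut L) : MulAut L ⧸ I) = (f : MulAut L ⧸ I) := by
      rw [he₀, QuotientGroup.mk_mul, QuotientGroup.mk_inv, (QuotientGroup.eq_one_iff _).2 hgI,
        inv_one, one_mul]
    rw [QuotientGroup.mk_pow, h3, ← QuotientGroup.mk_pow, hf, QuotientGroup.mk_one]
  -- the `p`-part
  have hord : orderOf e₀ ≠ 0 := (orderOf_pos e₀).ne'
  obtain ⟨a, m, hm, hord'⟩ := Nat.exists_eq_pow_mul_and_not_dvd hord p hp.ne_one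
  obtain ⟨e, he⟩ : ∃ e, e = e₀ ^ m := ⟨_, rfl⟩
  have hea : e ^ p ^ a = 1 := by
    rw [he, ← pow_mul, mul_comm, ← hord', pow_orderOf_eq_one]
  have heB : am e B = B := by rw [he]; exact am_pow_eq he₀B m
  have heI : e ∉ I := by
    intro hc
    apply he₀I
    have hcop : Nat.Coprime p m := (Nat.Prime.coprime_iff_not_dvd hp).2 hm
    have h3 := Nat.gcd_eq_gcd_ab p m
    rw [hcop.gcd_eq_one] at h3
    have h4 : e₀ = (e₀ ^ p) ^ (Nat.gcdA p m) * e ^ (Nat.gcdB p m) := by
      rw [he, ← zpow_natCast, ← zpow_natCast, ← zpow_mul, ← zpow_mul, ← zpow_add, ← h3]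
      simp
    rw [h4]
    exact mul_mem (zpow_mem he₀p _) (zpow_mem hc _)
  obtain ⟨C, hC, heC⟩ := exists_opp_fix h hr hp hpr hea heB
  have hlong := h.long_of_opp hr hn₀ hopp
  obtain ⟨u, hu, rfl⟩ := (h.opp_iff hr hlong).1 hC
  have huB := h.le hu
  have huI : MulAut.conj u ∈ I := ⟨u, rfl⟩
  -- the conjugate that stabilizes the standard opposite chamber
  obtain ⟨e', he'⟩ : ∃ e', e' = (MulAut.conj u)⁻¹ * e * MulAut.conj u := ⟨_, rfl⟩
  have hu1 : (MulAut.conj u)⁻¹ = MulAut.conj u⁻¹ := (map_inv _ _).symm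
  have he'I : e' ∉ I := by
    intro hc
    apply heI
    have h3 : e = MulAut.conj u * e' * (MulAut.conj u)⁻¹ := by rw [he']; group
    rw [h3]
    exact hnI.conj_mem _ hc _
  have he'a : e' ^ p ^ a = 1 := by
    have h3 : e' = (MulAut.conj u)⁻¹ * e * (MulAut.conj u)⁻¹⁻¹ := by rw [he', inv_inv]
    rw [h3, conj_pow, hea, mul_one, mul_inv_cancel]
  have he'B : am e' B = B := by
    rw [he', am_mul, am_mul, am_conj, cj_self huB, heB, hu1, am_conj, cj_self (inv_mem huB)]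
  have he'C : am e' (cj n₀ B) = cj n₀ B := by
    rw [he', am_mul, am_mul, am_conj, ← cj_mul, heC, hu1, am_conj, ← cj_mul, inv_mul_cancel_left]
  have hP := h1 e' ⟨a, he'a⟩ he'B he'C
  have h5 := h.eq_one_of_roots hsimple hr he'B hP hn₀ hopp he'C (h2 e' ⟨a, he'a⟩ he'B he'C hP)
  exact he'I (h5 ▸ one_mem _)

/-- there are no outer automorphisms of order `p`, so `L` has few automorphisms -/
theorem fewAut_of_inner {p : ℕ}
    (hin : ∀ f : MulAut L, f ^ p = 1 → f ∈ (MulAut.conj (G := L)).range) : FewAut p L :=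
  ⟨fun f _ _ hf _ _ => absurd (hin f hf.1) hf.2, Or.inl fun f _ hf _ => absurd (hin f hf.1) hf.2⟩

/-- an automorphism that stabilizes `n B n⁻¹` stabilizes `n U n⁻¹` -/
lemma am_cj_U (h : SB r B N U S) [Finite L] (hr : r.Prime) {e : MulAut L} {n : L}
    (he : am e (cj n B) = cj n B) : am e (cj n U) = cj n U := by
  refine am_eq_of_le ?_
  rintro _ ⟨x, hx, rfl⟩
  rw [mem_cj]
  have hx' : n⁻¹ * x * n ∈ U := by
    have := hx
    rwa [SetLike.mem_coe, mem_cj] at this
  have hn1 : (MulAut.conj n)⁻¹ = MulAut.conj n⁻¹ := (map_inv _ _).symm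
  have h1 : am ((MulAut.conj n)⁻¹ * e * MulAut.conj n) B = B := by
    rw [am_mul, am_mul, am_conj, he, hn1, am_conj, ← cj_mul, inv_mul_cancel, cj_one]
  have h2 := h.apply_U hr h1 hx'
  have h3 : ((MulAut.conj n)⁻¹ * e * MulAut.conj n) (n⁻¹ * x * n) = n⁻¹ * e x * n := by
    rw [MulAut.mul_apply, MulAut.mul_apply, hn1, MulAut.conj_apply, MulAut.conj_apply, inv_inv]
    congr 3
    group
  rw [h3] at h2
  exact h2

/-- an automorphism of `p`-power order fixes all elements of a stable subgroup without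
automorphisms of `p`-power order -/
lemma fix_of_triv {p k : ℕ} {X : Subgroup L} (hX : ∀ e : MulAut X, (∃ k, e ^ p ^ k = 1) → e = 1)
    {e : MulAut L} (hek : e ^ p ^ k = 1) (heX : am e X = X) : ∀ y ∈ X, e y = y := by
  have heX' : X.map e.toMonoidHom = X := heX
  obtain ⟨e', he'⟩ : ∃ e' : MulAut X, ∀ x : X, ((e' x : X) : L) = e x := by
    refine ⟨(e.subgroupMap X).trans (MulEquiv.subgroupCongr heX'), fun x => rfl⟩
  have hpow : ∀ n : ℕ, ∀ x : X, (((e' ^ n) x : X) : L) = (e ^ n) x := by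
    intro n
    induction n with
    | zero => intro x; simp
    | succ n ih =>
      intro x
      rw [pow_succ, pow_succ, MulAut.mul_apply, MulAut.mul_apply, ih, he']
  have h1 : e' = 1 := by
    refine hX e' ⟨k, ?_⟩
    ext x
    rw [hpow, hek]
    rfl
  intro y hy
  have h2 := he' ⟨y, hy⟩
  rw [h1] at h2
  exact h2.symm

/-- the form with conditions on the abstract root subgroups -/
theorem noOut_root (h : SB r B N U S) [Finite L] (hsimple : IsSimpleGroup L) (hr : r.Prime) {p : ℕ}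
    (hp : p.Prime) (hpr : p ≠ r) {n₀ : L} (hn₀ : n₀ ∈ N)
    (hopp : ∀ x ∈ U, n₀ * x * n₀⁻¹ ∈ U → x = 1)
    (h1 : ∀ e : MulAut L, (∃ k, e ^ p ^ k = 1) → am e B = B → am e (cj n₀ B) = cj n₀ B →
      ∀ s ∈ S, am e (Par B s) = Par B s)
    (h2 : ∀ s ∈ S, ∀ e : MulAut (cj n₀ U ⊓ Par B s : Subgroup L), (∃ k, e ^ p ^ k = 1) → e = 1)
    {f : MulAut L} (hf : f ^ p = 1) : f ∈ (MulAut.conj (G := L)).range := by
  refine noOut h hsimple hr hp hpr hn₀ hopp h1 ?_ hf
  rintro e ⟨k, hek⟩ heB heC hP s hs y hy hyU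
  refine fix_of_triv (h2 s hs) hek ?_ y ⟨mem_cj.2 hyU, hy⟩
  rw [am_inf, am_cj_U h hr heC, hP s hs]

end

section
variable {X : Type*} [Group X] [Finite X] {p : ℕ}

/-- an automorphism of `p`-power order is trivial if no proper divisor of the order of the group is
congruent to the order modulo `p` -/
theorem triv_of_card (hp : p.Prime) (Z : Subgroup X)
    (hX : ∀ d, d ∣ Nat.card X → Nat.card Z ∣ d → d ≡ Nat.card X [MOD p] → d = Nat.card X)
    {e : MulAut X} (he : ∃ k, e ^ p ^ k = 1) (heZ : ∀ z ∈ Z, e z = z) : e = 1 := by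
  classical
  obtain ⟨k, hk⟩ := he
  have : Fact p.Prime := ⟨hp⟩
  have hpg : IsPGroup p (zpowers e) := by
    intro x
    refine ⟨k, ?_⟩
    obtain ⟨x, j, rfl⟩ := x
    ext1
    change (e ^ j) ^ p ^ k = 1
    rw [← zpow_natCast, ← zpow_mul, mul_comm, zpow_mul, zpow_natCast, hk, one_zpow]
  let F : Subgroup X := e.toMonoidHom.eqLocus (MonoidHom.id X)
  have hF : ∀ x, x ∈ F ↔ e x = x := fun x => Iff.rfl
  have hfix : Nat.card (MulAction.fixedPoints (zpowers e) X) = Nat.card F := by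
    refine Nat.card_congr (Equiv.subtypeEquivRight fun x => ?_)
    rw [hF]
    constructor
    · intro hx
      exact hx ⟨e, mem_zpowers e⟩
    · rintro hx ⟨y, hy⟩
      have h1 : zpowers e ≤ MulAction.stabilizer (MulAut X) x := by
        rw [zpowers_le, MulAction.mem_stabilizer_iff]
        exact hx
      exact MulAction.mem_stabilizer_iff.1 (h1 hy)
  have hmod := hpg.card_modEq_card_fixedPoints X
  rw [hfix] at hmod
  have hZF : Z ≤ F := fun z hz => (hF z).2 (heZ z hz)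
  have hcard := hX _ (card_subgroup_dvd_card F) (card_dvd_of_le hZF) hmod.symm
  have htop : F = ⊤ := eq_top_of_card_eq F hcard
  ext x
  exact (hF x).1 (htop ▸ mem_top x)

theorem triv_of_card_bot (hp : p.Prime)
    (hX : ∀ d, d ∣ Nat.card X → d ≡ Nat.card X [MOD p] → d = Nat.card X)
    {e : MulAut X} (he : ∃ k, e ^ p ^ k = 1) : e = 1 :=
  triv_of_card hp ⊥ (fun d h1 _ h3 => hX d h1 h3) he fun z hz => by
    rw [mem_bot.1 hz, map_one]

/-- groups of prime order -/
theorem triv_of_prime (hp : p.Prime) (hX : (Nat.card X).Prime) (hpX : ¬ p ∣ Nat.card X - 1)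
    {e : MulAut X} (he : ∃ k, e ^ p ^ k = 1) : e = 1 := by
  refine triv_of_card_bot hp (fun d hd hmod => ?_) he
  rcases (Nat.dvd_prime hX).1 hd with rfl | h1
  · exact absurd ((Nat.modEq_iff_dvd' hX.one_lt.le).1 hmod) hpX
  · exact h1

/-- groups of order `r ^ a` -/
theorem triv_of_pow {r a : ℕ} (hp : p.Prime) (hr : r.Prime) (hpr : p ≠ r)
    (hX : Nat.card X = r ^ a) (hpX : ∀ j, 0 < j → j ≤ a → ¬ p ∣ r ^ j - 1)
    {e : MulAut X} (he : ∃ k, e ^ p ^ k = 1) : e = 1 := by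
  refine triv_of_card_bot hp (fun d hd hmod => ?_) he
  rw [hX] at hd hmod ⊢
  obtain ⟨j, hj, rfl⟩ := (Nat.dvd_prime_pow hr).1 hd
  rcases hj.lt_or_eq with hlt | rfl
  · exfalso
    have h1 := (Nat.modEq_iff_dvd' (Nat.pow_le_pow_right hr.pos hj)).1 hmod
    have h2 : r ^ a - r ^ j = r ^ j * (r ^ (a - j) - 1) := by
      rw [Nat.mul_sub, ← pow_add, Nat.add_sub_cancel' hj, mul_one]
    rw [h2] at h1
    rcases hp.dvd_mul.1 h1 with h3 | h3
    · exact hpr ((Nat.prime_dvd_prime_iff_eq hp hr).1 (hp.dvd_of_dvd_pow h3))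
    · exact hpX (a - j) (by omega) (by omega) h3
  · rfl

/-- groups of order `r ^ a` with a nontrivial proper characteristic subgroup: then only the primes
dividing `r ^ j - 1` for `j < a` matter -/
theorem triv_of_char {r a : ℕ} (hp : p.Prime) (hr : r.Prime) (hpr : p ≠ r)
    (hX : Nat.card X = r ^ a) (hpX : ∀ j, 0 < j → j < a → ¬ p ∣ r ^ j - 1)
    {Z : Subgroup X} [hZ : Z.Characteristic] (hZb : Z ≠ ⊥) (hZt : Z ≠ ⊤)
    {e : MulAut X} (he : ∃ k, e ^ p ^ k = 1) : e = 1 := by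
  obtain ⟨c, hc, hZc⟩ := (Nat.dvd_prime_pow hr).1 (hX ▸ card_subgroup_dvd_card Z)
  have hc0 : c ≠ 0 := by
    rintro rfl
    exact hZb (card_eq_one.1 (by rw [hZc, pow_zero]))
  have hca : c ≠ a := by
    rintro rfl
    exact hZt (eq_top_of_card_eq Z (by rw [hZc, hX]))
  have hZe : Z.map e.toMonoidHom = Z := characteristic_iff_map_eq.1 hZ e
  obtain ⟨k, hk⟩ := he
  have hfixZ : ∀ z ∈ Z, e z = z :=
    fix_of_triv (L := X) (fun e' he' => triv_of_pow hp hr hpr hZc
      (fun j h0 hj => hpX j h0 (by omega)) he') hk hZe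
  refine triv_of_card hp Z (fun d hd hZd hmod => ?_) ⟨k, hk⟩ hfixZ
  rw [hX] at hd hmod ⊢
  obtain ⟨j, hj, rfl⟩ := (Nat.dvd_prime_pow hr).1 hd
  have hcj : c ≤ j := by
    rw [hZc] at hZd
    exact (Nat.pow_dvd_pow_iff_le_right hr.one_lt).1 hZd
  rcases hj.lt_or_eq with hlt | rfl
  · exfalso
    have h1 := (Nat.modEq_iff_dvd' (Nat.pow_le_pow_right hr.pos hj)).1 hmod
    have h2 : r ^ a - r ^ j = r ^ j * (r ^ (a - j) - 1) := by
      rw [Nat.mul_sub, ← pow_add, Nat.add_sub_cancel' hj, mul_one]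
    rw [h2] at h1
    rcases hp.dvd_mul.1 h1 with h3 | h3
    · exact hpr ((Nat.prime_dvd_prime_iff_eq hp hr).1 (hp.dvd_of_dvd_pow h3))
    · exact hpX (a - j) (by omega) (by omega) h3
  · rfl

end

end Vale.Agent.P240.R2.H997
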