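import Vale.Agent.P240.R2.H997.OmFew
import Vale.Agent.P240.R2.H112.Br

/-!
The groups `Ω_n(F)`, `n` odd: all automorphisms that stabilize `B` and an opposite chamber stabilize
all minimal parabolic subgroups over `B`.
-/

set_option autoImplicit false
set_option linter.all false

namespace Vale.Agent.P240.R2.H997

open Subgroup Matrix Vale.Agent.P240.H195 Vale.Agent.P240.R2.H487.CG Vale.Agent.P240.K
  Vale.Agent.P240.R2.H775.RG Vale.Agent.P240.R2.H195.Om

universe u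

section
variable {F : Type u} [Field F] {n : Type*} [DecidableEq n] [Fintype n]

lemma single_mul_row {Z : Matrix n n F} {r q : n} (hz : ∀ v, Z q v = if q = v then 1 else 0)
    (c : F) : single r q c * Z = single r q c := by
  ext u v
  by_cases hu : u = r
  · subst hu
    rw [single_mul_apply_same, hz, single_apply]
    simp
  · rw [single_mul_apply_of_ne _ _ _ _ _ hu, single_apply, if_neg (fun h => hu h.1.symm)]

lemma mul_single_col {Z : Matrix n n F} {r q : n} (hz : ∀ u, Z u r = if u = r then 1 else 0)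
    (c : F) : Z * single r q c = single r q c := by
  ext u v
  by_cases hv : v = q
  · subst hv
    rw [mul_single_apply_same, hz, single_apply]
    by_cases hu : u = r
    · subst hu
      simp
    · simp [hu, Ne.symm hu]
  · rw [mul_single_apply_of_ne _ _ _ _ _ hv, single_apply, if_neg (fun h => hv h.2.symm)]

end

section
variable {F : Type u} [Field F] [Finite F] {m : ℕ}

/-- the first root group commutes with its conjugates by lower unitriangular elements -/
lemma comA (hm : 4 ≤ m) (hev : m % 2 = 0) {i : Fin m} (hi : i.val = 0)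
    {y : SLm m F} (hyG : th (rf F) y = y) (hy : LoU y) (hy' : LoU y⁻¹) (a a' : F) :
    yC (rf F) i a * (y * yC (rf F) i a' * y⁻¹) = (y * yC (rf F) i a' * y⁻¹) * yC (rf F) i a := by
  obtain ⟨p, hp⟩ : ∃ p, p = i.succ := ⟨_, rfl⟩
  obtain ⟨q, hq⟩ : ∃ q, q = i.castSucc := ⟨_, rfl⟩
  obtain ⟨r, hr⟩ : ∃ r, r = (Fin.rev i).succ := ⟨_, rfl⟩
  obtain ⟨s, hs⟩ : ∃ s, s = (Fin.rev i).castSucc := ⟨_, rfl⟩
  have vr : (Fin.rev i).val = m - (i.val + 1) := Fin.val_rev i
  have vp : p.val = 1 := by rw [hp, Fin.val_succ, hi]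
  have vq : q.val = 0 := by rw [hq, Fin.val_castSucc, hi]
  have vr' : r.val = m := by rw [hr, Fin.val_succ, vr]; omega
  have vs : s.val = m - 1 := by rw [hs, Fin.val_castSucc, vr]; omega
  have hX : ∀ c : F, (yC (rf F) i c).1 = 1 + (single p q c + single r s c) := by
    intro c
    have h1 : (yC (rf F) i c).1 = (1 + single p q c) * (1 + single r s c) := by
      rw [hp, hq, hr, hs]
      rfl
    rw [h1, add_mul, one_mul, mul_add, mul_one, single_mul_single_of_ne]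
    · abel
    · intro h
      rw [Fin.ext_iff] at h
      omega
  obtain ⟨Y, hY⟩ : ∃ Y, Y = y.1 := ⟨_, rfl⟩
  obtain ⟨Z, hZ⟩ : ∃ Z, Z = (y⁻¹).1 := ⟨_, rfl⟩
  have hYZ : Y * Z = 1 := by
    have h1 : (y * y⁻¹).1 = 1 := by rw [mul_inv_cancel]; rfl
    rw [hY, hZ]
    exact h1
  have hYu : ∀ u v : Fin (m + 1), u.val < v.val → Y u v = 0 := fun u v h => by
    rw [hY]; exact hy.1 u v h
  have hZu : ∀ u v : Fin (m + 1), u.val < v.val → Z u v = 0 := fun u v h => by
    rw [hZ]; exact hy'.1 u v h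
  have hZrow : ∀ v, Z q v = if q = v then 1 else 0 := by
    intro v
    by_cases h : q = v
    · rw [if_pos h, ← h, hZ]; exact hy'.2 q
    · rw [if_neg h, hZu]
      rw [Fin.ext_iff] at h
      omega
  have hYcol : ∀ u, Y u r = if u = r then 1 else 0 := by
    intro u
    by_cases h : u = r
    · rw [if_pos h, h, hY]; exact hy.2 r
    · rw [if_neg h, hYu]
      rw [Fin.ext_iff] at h
      have := u.2
      omega
  have hsp : Y s p = Z s p := by
    have h1 := th_apply (rf F) y s p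
    rw [hyG] at h1
    have e1 : Fin.rev p = s := by
      rw [Fin.ext_iff, Fin.val_rev]
      omega
    have e2 : Fin.rev s = p := by rw [← e1, Fin.rev_rev]
    rw [e1, e2] at h1
    rw [hY, h1, Even.neg_one_pow (Nat.even_iff.2 (by omega)), one_mul, hZ]
    rfl
  have hM : ∀ (W : Matrix (Fin (m + 1)) (Fin (m + 1)) F) (c d : F),
      (∀ u v : Fin (m + 1), u.val < v.val → W u v = 0) →
      (single p q c + single r s c) * W * (single p q d + single r s d) =
        single r q (c * W s p * d) := by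
    intro W c d hW
    rw [add_mul, mul_add, add_mul, add_mul, single_mul_mul_single, single_mul_mul_single,
      single_mul_mul_single, single_mul_mul_single, hW q p (by omega), hW q r (by omega),
      hW s r (by omega)]
    simp
  apply Subtype.ext
  change (yC (rf F) i a).1 * (y.1 * (yC (rf F) i a').1 * (y⁻¹).1) =
    (y.1 * (yC (rf F) i a').1 * (y⁻¹).1) * (yC (rf F) i a).1
  rw [hX, hX, ← hY, ← hZ]
  obtain ⟨A, hA⟩ : ∃ A, A = single p q a + single r s a := ⟨_, rfl⟩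
  obtain ⟨A', hA'⟩ : ∃ A', A' = single p q a' + single r s a' := ⟨_, rfl⟩
  rw [← hA, ← hA']
  have e1 : A * (Y * A' * Z) = single r q (a * Y s p * a') := by
    calc A * (Y * A' * Z) = (A * Y * A') * Z := by simp only [Matrix.mul_assoc]
      _ = _ := by rw [hA, hA', hM Y a a' hYu, single_mul_row hZrow]
  have e2 : (Y * A' * Z) * A = single r q (a' * Z s p * a) := by
    calc (Y * A' * Z) * A = Y * (A' * Z * A) := by simp only [Matrix.mul_assoc]
      _ = _ := by rw [hA, hA', hM Z a' a hZu, mul_single_col hYcol]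
  have e3 : A * (Y * A' * Z) = (Y * A' * Z) * A := by
    rw [e1, e2, hsp]
    congr 1
    ring
  have e4 : Y * (1 + A') * Z = 1 + Y * A' * Z := by
    rw [mul_add, mul_one, add_mul, hYZ]
  rw [e4, add_mul, one_mul, mul_add A, mul_one, e3, mul_add, mul_one, add_mul, one_mul]

/-- the last root group does not -/
lemma comB_aux {p0 p1 p2 p3 p4 : Fin (m + 1)} (h10 : p1 ≠ p0) (h20 : p2 ≠ p0) (h30 : p3 ≠ p0)
    (h40 : p4 ≠ p0) (h21 : p2 ≠ p1) (h31 : p3 ≠ p1) (h41 : p4 ≠ p1) (h32 : p3 ≠ p2)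
    (h42 : p4 ≠ p2) (h43 : p4 ≠ p3) (b : F) {x y : SLm m F}
    (hx : x = tx h21 1 * (tx h32 1 * tx h31 b)) (hy : y = tx h10 1 * tx h43 1) :
    x * (y * x * y⁻¹) ≠ (y * x * y⁻¹) * x := by
  intro h
  have e1 : y⁻¹ = tx h43 (-1) * tx h10 (-1) := by rw [hy, _root_.mul_inv_rev, tx_inv, tx_inv]
  have h1 := congrArg (fun A : SLm m F => A.1 p4 p1) h
  have e2 : x * (y * x * y⁻¹) = tx h21 1 * (tx h32 1 * (tx h31 b * (tx h10 1 * (tx h43 1 *
      (tx h21 1 * (tx h32 1 * (tx h31 b * (tx h43 (-1) * tx h10 (-1))))))))) := by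
    rw [e1, hx, hy]
    simp only [mul_assoc]
  have e3 : (y * x * y⁻¹) * x = tx h10 1 * (tx h43 1 *
      (tx h21 1 * (tx h32 1 * (tx h31 b * (tx h43 (-1) * (tx h10 (-1) *
      (tx h21 1 * (tx h32 1 * tx h31 b)))))))) := by
    rw [e1, hx, hy]
    simp only [mul_assoc]
  rw [e2, e3] at h1
  simp only [tx_mul_apply, tx_apply] at h1
  simp [h10, h20, h30, h40, h21, h31, h41, h32, h42, h43, h10.symm, h20.symm, h30.symm, h40.symm,
    h21.symm, h31.symm, h41.symm, h32.symm, h42.symm, h43.symm] at h1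
  exact one_ne_zero (α := F) (by linear_combination (-1 : F) * h1)

lemma comB {i k : Fin m} (hi : 2 * i.val + 2 = m) (hk : k.val + 1 = i.val) (b : F) :
    yB hi 1 1 b * (yC (rf F) k 1 * yB hi 1 1 b * (yC (rf F) k 1)⁻¹) ≠
      (yC (rf F) k 1 * yB hi 1 1 b * (yC (rf F) k 1)⁻¹) * yB hi 1 1 b := by
  have v1 := i.castSucc.val
  have vr : (Fin.rev k).val = m - (k.val + 1) := Fin.val_rev k
  have vi : (Fin.rev i.castSucc).val = i.val + 2 := (B_vals hi).2.1
  refine comB_aux (p0 := k.castSucc) (p1 := i.castSucc) (p2 := i.succ) (p3 := Fin.rev i.castSucc)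
    (p4 := (Fin.rev k).succ) ?_ ?_ ?_ ?_ ?_ ?_ ?_ ?_ ?_ ?_ b (x := yB hi 1 1 b)
    (y := yC (rf F) k 1) rfl ?_
  all_goals first
    | (rw [Ne, Fin.ext_iff]; simp only [Fin.val_succ, Fin.val_castSucc, vr, vi]; omega)
    | skip
  unfold yC
  congr 1
  · refine tx_congr ?_ rfl rfl
    rw [Fin.ext_iff, Fin.val_succ, Fin.val_castSucc]
    omega
  · refine tx_congr rfl ?_ rfl
    rw [Fin.ext_iff, Fin.val_castSucc, vr, vi]
    omega

/-- representatives of the simple reflections in a normal subgroup that contains `U` -/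
lemma exists_list {r : ℕ} [hr : Fact r.Prime] [CharP F r] (hm : 0 < m) (hev : m % 2 = 0)
    (h2 : (2 : F) ≠ 0) {H : Subgroup ↥(GJ (m + 1) (rf F))} (hHn : H.Normal)
    (hU : UG (rf F) ≤ H) :
    ∃ s : Fin (m / 2) → ↥H, (∀ k, s k ∈ subS (BG (rf F)) (NG (rf F)) (SG (rf F)) H) ∧
      (∀ (k : Fin (m / 2)) (hk : k.val < m), Mon (s k).1.1 (ty (⟨k.val, hk⟩ : Fin m))) ∧
      (∀ t ∈ subS (BG (rf F)) (NG (rf F)) (SG (rf F)) H, ∃ i,
        (s i)⁻¹ * t ∈ (BG (rf F)).subgroupOf H) ∧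
      (∀ i j, (s i)⁻¹ * s j ∈ (BG (rf F)).subgroupOf H → i = j) ∧
      (∀ i j : Fin (m / 2), i.val + 1 = j.val →
        (s j * s i)⁻¹ * (s i * s j) ∉ (BG (rf F)).subgroupOf H) ∧
      (∀ i j : Fin (m / 2), i.val + 1 < j.val →
        (s j * s i)⁻¹ * (s i * s j) ∈ (BG (rf F)).subgroupOf H) ∧
      ∃ n : ↥H, Mon n.1.1 Fin.revPerm := by
  have hG := cg_SB (F := F) (σ := rf F) (p := r) hm hrf (Or.inr (Or.inr h2))
  have hrep : ∀ {w : Equiv.Perm (Fin (m + 1))}, Cr w → ∃ n : ↥(GJ (m + 1) (rf F)),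
      ∃ t : ↥(GJ (m + 1) (rf F)), Mon n.1 w ∧ t ∈ BG (rf F) ∧ t ∈ NG (rf F) ∧ n * t ∈ H := by
    intro w hw
    obtain ⟨n, hn⟩ := exists_NG (F := F) (σ := rf F) hw
    obtain ⟨t, ht1, ht2, ht3⟩ := sub_rep hG hU (n := n) ⟨_, hn⟩
    exact ⟨n, t, hn, ht1, ht2, ht3⟩
  have hmonT : ∀ {n t : ↥(GJ (m + 1) (rf F))} {w : Equiv.Perm (Fin (m + 1))}, Mon n.1 w →
      t ∈ BG (rf F) → t ∈ NG (rf F) → Mon (n * t).1 w := by
    intro n t w hn ht1 ht2
    have htM : Mon t.1 1 := mem_T.1 (mem_inf.2 ⟨ht1, ht2⟩)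
    have := mon_mul hn htM
    rwa [mul_one] at this
  have hlt : ∀ k : Fin (m / 2), k.val < m := fun k => by have := k.2; omega
  have hle : ∀ k : Fin (m / 2), 2 * k.val + 1 ≤ m := fun k => by have := k.2; omega
  have htyp : ∀ k : Fin (m / 2), Typ (ty (⟨k.val, hlt k⟩ : Fin m)) := fun k =>
    typ_iff.2 ⟨_, hle k, rfl⟩
  have hex : ∀ k : Fin (m / 2), ∃ s : ↥H, s ∈ subS (BG (rf F)) (NG (rf F)) (SG (rf F)) H ∧
      Mon s.1.1 (ty (⟨k.val, hlt k⟩ : Fin m)) := by
    intro k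
    obtain ⟨n, t, hn, ht1, ht2, ht3⟩ := hrep (htyp k).cr
    refine ⟨⟨n * t, ht3⟩, ⟨mul_mem ⟨_, hn⟩ ht2, n, ⟨_, htyp k, hn⟩, ?_⟩, hmonT hn ht1 ht2⟩
    change n⁻¹ * (n * t) ∈ BG (rf F)
    rwa [inv_mul_cancel_left]
  choose s hsS hsM using hex
  have hmonS : ∀ t ∈ subS (BG (rf F)) (NG (rf F)) (SG (rf F)) H, ∃ k : Fin (m / 2),
      Mon t.1.1 (ty (⟨k.val, hlt k⟩ : Fin m)) := by
    rintro t ⟨htN, a, ⟨τ, hτ, ha⟩, hat⟩
    have htM : Mon t.1.1 τ := by
      obtain ⟨w, hw⟩ := mem_NG.1 htN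
      have h3 : Mon (a.1⁻¹ * t.1.1) (τ⁻¹ * w) := mon_mul (mon_inv ha) hw
      have h4 : τ⁻¹ * w = 1 := mon_up h3 hat
      rwa [← inv_mul_eq_one.1 h4] at hw
    obtain ⟨k, hk, rfl⟩ := typ_iff.1 hτ
    exact ⟨⟨k.val, by omega⟩, htM⟩
  have hmc : ∀ i j : Fin (m / 2), Mon ((s j * s i)⁻¹ * (s i * s j)).1.1
      ((ty (⟨j.val, hlt j⟩ : Fin m) * ty (⟨i.val, hlt i⟩ : Fin m))⁻¹ *
        (ty (⟨i.val, hlt i⟩ : Fin m) * ty (⟨j.val, hlt j⟩ : Fin m))) := fun i j =>
    mon_mul (mon_inv (mon_mul (hsM j) (hsM i))) (mon_mul (hsM i) (hsM j))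
  refine ⟨s, hsS, fun k hk => hsM k, ?_, ?_, ?_, ?_, ?_⟩
  · intro t ht
    obtain ⟨k, hk⟩ := hmonS t ht
    refine ⟨k, ?_⟩
    have h3 : Mon ((s k).1.1⁻¹ * t.1.1) _ := mon_mul (mon_inv (hsM k)) hk
    rw [inv_mul_cancel] at h3
    exact mem_T' h3
  · intro i j hij
    have h3 : Mon ((s i).1.1⁻¹ * (s j).1.1) _ := mon_mul (mon_inv (hsM i)) (hsM j)
    have h4 := mon_up h3 hij
    have h5 := ty_injective (hle i) (hle j) (inv_mul_eq_one.1 h4)
    exact Fin.ext (by simpa using congrArg Fin.val h5)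
  · intro i j hij hcon
    have h4 := mon_up (hmc i j) hcon
    have h5 := inv_mul_eq_one.1 h4
    obtain ⟨i, hi⟩ := i
    obtain ⟨j, hj⟩ := j
    obtain rfl : i + 1 = j := hij
    exact ty_ne (m := m) (k := i) (by omega) (by omega) (by omega) h5.symm
  · intro i j hij
    have h4 := hmc i j
    rw [ty_comm (i := (⟨i.val, hlt i⟩ : Fin m)) (j := (⟨j.val, hlt j⟩ : Fin m)) (hle i) (hle j) hij,
      inv_mul_cancel] at h4
    exact mem_T' h4
  · obtain ⟨n₀, t₀, hn₀, ht1, ht2, ht3⟩ := hrep (w := Fin.revPerm) (cr_of fun x => by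
      rw [Fin.revPerm_apply, Fin.revPerm_apply])
    exact ⟨⟨n₀ * t₀, ht3⟩, hmonT hn₀ ht1 ht2⟩

/-- **no reversal**: all automorphisms of `Ω_n(F)` that stabilize `B` and an opposite chamber
stabilize the minimal parabolic subgroups over `B` -/
theorem omega_par_fix {r : ℕ} [hr : Fact r.Prime] [CharP F r] (hm : 4 ≤ m) (hev : m % 2 = 0)
    (h2 : (2 : F) ≠ 0) {H : Subgroup ↥(GJ (m + 1) (rf F))} (hHn : H.Normal) (hU : UG (rf F) ≤ H)
    {n : ↥H} (hnM : Mon n.1.1 Fin.revPerm) {e : MulAut ↥H}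
    (he : am e ((BG (rf F)).subgroupOf H) = (BG (rf F)).subgroupOf H)
    (heC : am e (cj n ((BG (rf F)).subgroupOf H)) = cj n ((BG (rf F)).subgroupOf H)) :
    ∀ s ∈ subS (BG (rf F)) (NG (rf F)) (SG (rf F)) H,
      am e (Par ((BG (rf F)).subgroupOf H) s) = Par ((BG (rf F)).subgroupOf H) s := by
  have hG := cg_SB (F := F) (σ := rf F) (p := r) (by omega : 0 < m) hrf (Or.inr (Or.inr h2))
  have h := SB.subgroup hG hU
  obtain ⟨s, hsS, hsM, hall, hinj, hnc, hc, -⟩ := exists_list (r := r) (by omega : 0 < m) hev h2 hHn hU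
  obtain ⟨π, hπ1, hπ2, -, -⟩ := par_perm h s hsS hall hinj he
  refine par_fix_of_perm h hsS hall hπ1 ?_
  have hcomm : ∀ i j : Fin (m / 2), (s j * s i)⁻¹ * (s i * s j) ∈ (BG (rf F)).subgroupOf H →
      (s i * s j)⁻¹ * (s j * s i) ∈ (BG (rf F)).subgroupOf H := by
    intro i j h1
    have := inv_mem h1
    rwa [_root_.mul_inv_rev, inv_inv] at this
  have hrel : ∀ i j : Fin (m / 2), i ≠ j → (¬ (i.val + 1 = j.val ∨ j.val + 1 = i.val)) →
      (s j * s i)⁻¹ * (s i * s j) ∈ (BG (rf F)).subgroupOf H := by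
    intro i j hij hcon
    have hij' : i.val ≠ j.val := fun h => hij (Fin.ext h)
    push Not at hcon
    rcases lt_or_gt_of_ne hij' with h2 | h2
    · exact hc i j (by omega)
    · exact hcomm j i (hc j i (by omega))
  have hrel' : ∀ i j : Fin (m / 2), (i.val + 1 = j.val ∨ j.val + 1 = i.val) →
      (s j * s i)⁻¹ * (s i * s j) ∉ (BG (rf F)).subgroupOf H := by
    rintro i j (h1 | h1)
    · exact hnc i j h1
    · exact fun h2 => hnc j i h1 (hcomm i j h2)
  have hrev := Vale.Agent.P240.R2.H112.Br.path_rev π ?_ ?_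
  · rcases hrev with h1 | h1
    · exact h1
    · exfalso
      -- the first and the last node
      obtain ⟨i, hi⟩ : ∃ i : Fin (m / 2), i.val = 0 := ⟨⟨0, by omega⟩, rfl⟩
      have hπi := h1 i
      have hlt : ∀ k : Fin (m / 2), k.val < m := fun k => by have := k.2; omega
      have hle : ∀ k : Fin (m / 2), 2 * k.val + 1 ≤ m := fun k => by have := k.2; omega
      have htyp : ∀ k : Fin (m / 2), Typ (ty (⟨k.val, hlt k⟩ : Fin m)) := fun k =>
        typ_iff.2 ⟨_, hle k, rfl⟩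
      have hXe : am e (cj n ((UG (rf F)).subgroupOf H) ⊓ Par ((BG (rf F)).subgroupOf H) (s i)) =
          cj n ((UG (rf F)).subgroupOf H) ⊓ Par ((BG (rf F)).subgroupOf H) (s (π i)) := by
        rw [am_inf, am_cj_U h hr.out heC, hπ1]
      have hY : ∀ (k : Fin (m / 2)) (y : ↥H), y ∈ (cj n ((UG (rf F)).subgroupOf H) ⊓
          Par ((BG (rf F)).subgroupOf H) (s k) : Subgroup ↥H) ↔
            LoU y.1.1 ∧ Pt (ty (⟨k.val, hlt k⟩ : Fin m)) y.1.1 := by
        intro k y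
        rw [← mem_Y_iff h hnM (htyp k) (hsM k (hlt k)) (hsS k), mem_inf, mem_cj]
        exact and_comm
      have hV : ∀ y : ↥H, y ∈ cj n ((UG (rf F)).subgroupOf H) ↔ LoU y.1.1 := by
        intro y
        rw [mem_cj]
        exact (lou_iff hnM).symm
      -- the first root group commutes with its conjugates
      have hcomA : ∀ x ∈ (cj n ((UG (rf F)).subgroupOf H) ⊓ Par ((BG (rf F)).subgroupOf H) (s i) :
          Subgroup ↥H), ∀ y ∈ cj n ((UG (rf F)).subgroupOf H),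
            x * (y * x * y⁻¹) = (y * x * y⁻¹) * x := by
        intro x hx y hy
        obtain ⟨hx1, hx2⟩ := (hY i x).1 hx
        have hi2 : 2 * (⟨i.val, hlt i⟩ : Fin m).val + 2 < m := by
          change 2 * i.val + 2 < m
          omega
        have hty : ty (⟨i.val, hlt i⟩ : Fin m) = sw ⟨i.val, hlt i⟩ * sw (Fin.rev ⟨i.val, hlt i⟩) := by
          unfold ty
          rw [if_pos hi2]
        rw [hty] at hx2
        have e1 := C_sym hrf hi2 (fixed x.1) hx1 hx2
        apply Subtype.ext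
        apply Subtype.ext
        change x.1.1 * (y.1.1 * x.1.1 * y.1.1⁻¹) = (y.1.1 * x.1.1 * y.1.1⁻¹) * x.1.1
        rw [e1]
        exact comA hm hev (i := ⟨i.val, hlt i⟩) hi (fixed y.1) ((hV y).1 hy)
          ((hV y⁻¹).1 (inv_mem hy)) _ _
      -- the last one does not
      have hπm : 2 * (π i).val + 2 = m := by omega
      have hth : th (rf F) (yB (i := (⟨(π i).val, hlt _⟩ : Fin m)) hπm 1 1 (1 / 2)) =
          yB (i := (⟨(π i).val, hlt _⟩ : Fin m)) hπm 1 1 (1 / 2) := by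
        rw [th_yB hrf]
        have e : -(1 / 2 : F) + 1 * 1 = 1 / 2 := by
          field_simp
          ring
        exact congrArg (yB (i := (⟨(π i).val, hlt _⟩ : Fin m)) hπm 1 1) e
      obtain ⟨x, hx⟩ : ∃ x : ↥(GJ (m + 1) (rf F)), x = mkG hth := ⟨_, rfl⟩
      have hx0 : x.1 = yB (i := (⟨(π i).val, hlt _⟩ : Fin m)) hπm 1 1 (1 / 2) := by rw [hx]; rfl
      have hxl : LoU x.1 := by rw [hx0]; exact yB_lou _ _ _ _
      have hxH : x ∈ H := lou_mem hHn hU hxl
      have hxp : Pt (ty (⟨(π i).val, hlt (π i)⟩ : Fin m)) x.1 := by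
        have hty : ty (⟨(π i).val, hlt (π i)⟩ : Fin m) =
            Equiv.swap (⟨(π i).val, hlt (π i)⟩ : Fin m).castSucc
              (Fin.rev (⟨(π i).val, hlt (π i)⟩ : Fin m).castSucc) := by
          unfold ty
          rw [if_neg]
          change ¬ 2 * (π i).val + 2 < m
          omega
        rw [hty, hx0]
        exact yB_pt _ _ _ _
      have hk2 : 2 * (⟨(π i).val - 1, by have := hlt (π i); omega⟩ : Fin m).val + 2 < m := by
        change 2 * ((π i).val - 1) + 2 < m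
        omega
      obtain ⟨k, hk⟩ : ∃ k : Fin m, k = ⟨(π i).val - 1, by have := hlt (π i); omega⟩ := ⟨_, rfl⟩
      rw [← hk] at hk2
      have hkv : k.val + 1 = (⟨(π i).val, hlt (π i)⟩ : Fin m).val := by
        rw [hk]
        change (π i).val - 1 + 1 = (π i).val
        omega
      obtain ⟨y, hy⟩ : ∃ y : ↥(GJ (m + 1) (rf F)), y = mkG (th_yC hrf hk2 1) := ⟨_, rfl⟩
      have hy0 : y.1 = yC (rf F) k 1 := by rw [hy]; rfl
      have hyl : LoU y.1 := by rw [hy0]; exact yC_lou _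
      have hyH : y ∈ H := lou_mem hHn hU hyl
      -- pull back
      have hx1 : (⟨x, hxH⟩ : ↥H) ∈ (cj n ((UG (rf F)).subgroupOf H) ⊓
          Par ((BG (rf F)).subgroupOf H) (s (π i)) : Subgroup ↥H) := (hY (π i) _).2 ⟨hxl, hxp⟩
      have hy1 : (⟨y, hyH⟩ : ↥H) ∈ cj n ((UG (rf F)).subgroupOf H) := (hV _).2 hyl
      rw [← hXe] at hx1
      rw [← am_cj_U h hr.out heC] at hy1
      obtain ⟨x', hx', hxe⟩ := hx1
      obtain ⟨y', hy', hye⟩ := hy1
      have h3 := congrArg e (hcomA x' hx' y' hy')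
      have h4 : e x' = ⟨x, hxH⟩ := hxe
      have h5 : e y' = ⟨y, hyH⟩ := hye
      simp only [map_mul, map_inv, h4, h5] at h3
      have h6 : x.1 * (y.1 * x.1 * y.1⁻¹) = (y.1 * x.1 * y.1⁻¹) * x.1 :=
        congrArg (fun z : ↥H => z.1.1) h3
      rw [hx0, hy0] at h6
      exact comB (i := (⟨(π i).val, hlt (π i)⟩ : Fin m)) hπm hkv (1 / 2) h6
  · intro i j hij
    by_contra hcon
    have hne : π i ≠ π j := by
      intro h1
      have := π.injective h1
      subst this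
      omega
    exact hrel' i j (Or.inl hij) ((hπ2 i j).2 (hrel _ _ hne hcon))
  · intro i j hij
    by_contra hcon
    have hne : π⁻¹ i ≠ π⁻¹ j := by
      intro h1
      have := π⁻¹.injective h1
      subst this
      omega
    have h1 := (hπ2 (π⁻¹ i) (π⁻¹ j)).1 (hrel _ _ hne hcon)
    have h2 : ∀ x, π (π⁻¹ x) = x := π.apply_symm_apply
    rw [h2, h2] at h1
    exact hrel' i j (Or.inl hij) h1

end

end Vale.Agent.P240.R2.H997
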